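import Vale.Agent.P076.H791.Pos3
import Mathlib.MeasureTheory.Constructions.HaarToSphere

/-!
# P076 (helper415): a Gaussian integral over the unit sphere

`sphere_gauss`: the integral of `exp(-a‖ω-ω'‖²)` over the unit sphere against the surface
measure `volume.toSphere` is at most `n·e·√π·(π/a)^((n-1)/2)`.  Both the Bochner and the
lower-integral form.
-/

open MeasureTheory Metric Set
open scoped ENNReal NNReal RealInnerProductSpace

namespace Vale.Agent.P076.H415

variable {n : ℕ}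

/-- the elongated Gaussian on the space -/
theorem integral_prod_gauss (hn : 1 ≤ n) {a : ℝ} (ω : E n) (hω : ‖ω‖ = 1) :
    (∫ y : E n, Real.exp (-(a * (‖y‖ ^ 2 - ⟪ω, y⟫ ^ 2) + ⟪ω, y⟫ ^ 2))) =
      √Real.pi * √(Real.pi / a) ^ (n - 1) := by
  obtain ⟨m, rfl⟩ : ∃ m, n = m + 1 := ⟨n - 1, by omega⟩
  -- an orthonormal basis through `ω`
  obtain ⟨b, hb⟩ := Orthonormal.exists_orthonormalBasis_extension_of_card_eq (𝕜 := ℝ)
    (E := E (m + 1)) (ι := Fin (m + 1)) (by simp) (v := fun _ => ω) (s := {0}) (by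
      rw [orthonormal_iff_ite]
      intro i j
      have hi : i = j := Subsingleton.elim _ _
      subst hi
      simp [hω])
  have hb0 : b 0 = ω := hb 0 rfl
  set f : Fin (m + 1) → ℝ → ℝ := fun i t => if i = 0 then Real.exp (-(1 * t ^ 2)) else
    Real.exp (-(a * t ^ 2)) with hf
  have h1 : ∀ y : E (m + 1), Real.exp (-(a * (‖y‖ ^ 2 - ⟪ω, y⟫ ^ 2) + ⟪ω, y⟫ ^ 2)) =
      ∏ i, f i ((WithLp.ofLp (b.repr y)) i) := by
    intro y
    have h2 : ‖y‖ ^ 2 = ∑ i, (b.repr y) i ^ 2 := by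
      rw [← b.repr.norm_map y, EuclideanSpace.norm_sq_eq]
      refine Finset.sum_congr rfl fun i _ => ?_
      rw [Real.norm_eq_abs, sq_abs]
    have h3 : ⟪ω, y⟫ = (b.repr y) 0 := by
      rw [← hb0, b.repr_apply_apply]
    rw [h2, h3, Fin.sum_univ_succ, Fin.prod_univ_succ]
    simp only [hf, if_true, Fin.succ_ne_zero, if_false]
    rw [← Real.exp_sum, ← Real.exp_add]
    congr 1
    rw [Finset.sum_neg_distrib, ← Finset.mul_sum]
    ring
  simp_rw [h1]
  have h4 : (∫ y : E (m + 1), ∏ i, f i ((WithLp.ofLp (b.repr y)) i)) =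
      ∫ z : Fin (m + 1) → ℝ, ∏ i, f i (z i) := by
    have hm1 : MeasurePreserving (b.repr : E (m + 1) → E (m + 1)) := b.repr.measurePreserving
    have hm2 := PiLp.volume_preserving_ofLp (Fin (m + 1))
    have e1 := hm1.integral_comp b.repr.toHomeomorph.measurableEmbedding
      (fun y : E (m + 1) => ∏ i, f i ((WithLp.ofLp y) i))
    have e2 := hm2.integral_comp (MeasurableEquiv.toLp 2 (Fin (m + 1) → ℝ)).symm.measurableEmbedding
      (fun z : Fin (m + 1) → ℝ => ∏ i, f i (z i))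
    exact e1.trans e2
  rw [h4, integral_fintype_prod_volume_eq_prod, Fin.prod_univ_succ]
  simp only [hf, if_true, Fin.succ_ne_zero, if_false]
  have g1 : (∫ t : ℝ, Real.exp (-(1 * t ^ 2))) = √Real.pi := by
    have := integral_gaussian 1
    simpa using this
  have g2 : (∫ t : ℝ, Real.exp (-(a * t ^ 2))) = √(Real.pi / a) := by
    have := integral_gaussian a
    simpa using this
  rw [g1, g2, Finset.prod_const, Finset.card_univ, Fintype.card_fin]
  simp

/-- integrability of the elongated Gaussian on the space -/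
theorem integrable_prod_gauss (hn : 1 ≤ n) {a : ℝ} (ha : 0 < a) (ω : E n) (hω : ‖ω‖ = 1) :
    Integrable (fun y : E n => Real.exp (-(a * (‖y‖ ^ 2 - ⟪ω, y⟫ ^ 2) + ⟪ω, y⟫ ^ 2))) := by
  by_contra hcon
  have h := integral_prod_gauss hn (a := a) ω hω
  rw [integral_undef hcon] at h
  have h2 : 0 < √Real.pi * √(Real.pi / a) ^ (n - 1) := by positivity
  linarith

/-- the lower integral of a function on the sphere against the surface measure, in terms of
a function on the space -/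
theorem lintegral_toSphere_le {h : Metric.sphere (0 : E n) 1 → ℝ≥0∞} (hh : Measurable h)
    {G : E n → ℝ≥0∞}
    (hG : ∀ (u : Metric.sphere (0 : E n) 1) (r : ℝ), 0 < r → r < 1 → h u ≤ G (r • (u : E n))) :
    ∫⁻ u, h u ∂(volume : Measure (E n)).toSphere ≤ n * ∫⁻ y, G y := by
  set j : (Metric.sphere (0 : E n) 1 × Ioi (0 : ℝ)) → E n :=
    Subtype.val ∘ (homeomorphUnitSphereProd (E n)).symm with hj
  have hjm : MeasurableEmbedding j :=
    (MeasurableEmbedding.subtype_coe (measurableSet_singleton _).compl).comp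
      (Homeomorph.measurableEmbedding _)
  have hjv : ∀ p, j p = (p.2 : ℝ) • (p.1 : E n) := fun p => by
    simp [hj, homeomorphUnitSphereProd_symm_apply_coe]
  rw [Measure.toSphere, lintegral_smul_measure, Measure.fst, lintegral_map hh measurable_fst]
  rw [nsmul_eq_mul]
  have hd : ((Module.finrank ℝ (E n) : ℕ) : ℝ≥0∞) = n := by simp
  rw [hd]
  gcongr
  calc ∫⁻ p in univ ×ˢ Iio ⟨1, mem_Ioi.2 one_pos⟩, h p.1 ∂(volume : Measure (E n)).comap j
      ≤ ∫⁻ p in univ ×ˢ Iio ⟨1, mem_Ioi.2 one_pos⟩, G (j p) ∂(volume : Measure (E n)).comap j := by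
        refine setLIntegral_mono_ae' (MeasurableSet.univ.prod measurableSet_Iio) ?_
        refine Filter.Eventually.of_forall fun p hp => ?_
        rw [hjv]
        exact hG p.1 p.2 p.2.2 hp.2
    _ ≤ ∫⁻ p, G (j p) ∂(volume : Measure (E n)).comap j := setLIntegral_le_lintegral _ _
    _ = ∫⁻ y in range j, G y := by
        rw [← hjm.lintegral_map, hjm.map_comap]
    _ ≤ ∫⁻ y, G y := setLIntegral_le_lintegral _ _

/-- the pointwise comparison -/
theorem gauss_pointwise {a : ℝ} (ha : 0 < a) (ω u : Metric.sphere (0 : E n) 1) {r : ℝ}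
    (hr0 : 0 < r) (hr1 : r < 1) :
    Real.exp (-(a * ‖(ω : E n) - u‖ ^ 2)) ≤ Real.exp 1 *
      Real.exp (-(a * (‖r • (u : E n)‖ ^ 2 - ⟪(ω : E n), r • (u : E n)⟫ ^ 2) +
        ⟪(ω : E n), r • (u : E n)⟫ ^ 2)) := by
  have hω : ‖(ω : E n)‖ = 1 := norm_eq_of_mem_sphere ω
  have hu : ‖(u : E n)‖ = 1 := norm_eq_of_mem_sphere u
  set c : ℝ := ⟪(ω : E n), (u : E n)⟫ with hc
  have hc1 : |c| ≤ 1 := by
    have := abs_real_inner_le_norm (ω : E n) (u : E n)
    rwa [hω, hu, one_mul] at this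
  have hc2 : c ^ 2 ≤ 1 := by
    have := sq_abs c
    nlinarith [abs_nonneg c]
  have h1 : ‖(ω : E n) - u‖ ^ 2 = 2 - 2 * c := by
    rw [norm_sub_sq_real, hω, hu]; ring
  have h2 : ‖r • (u : E n)‖ ^ 2 = r ^ 2 := by
    rw [norm_smul, hu, mul_one, Real.norm_eq_abs, sq_abs]
  have h3 : ⟪(ω : E n), r • (u : E n)⟫ = r * c := by
    rw [real_inner_smul_right]
  rw [h1, h2, h3, ← Real.exp_add]
  apply Real.exp_le_exp.mpr
  have hr2 : r ^ 2 ≤ 1 := by nlinarith
  have h4 : r ^ 2 * (1 - c ^ 2) ≤ 2 - 2 * c := by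
    have : r ^ 2 * (1 - c ^ 2) ≤ 1 * (1 - c ^ 2) :=
      mul_le_mul_of_nonneg_right hr2 (by linarith)
    nlinarith [sq_nonneg (1 - c)]
  have h5 : (r * c) ^ 2 ≤ 1 := by
    rw [mul_pow]
    calc r ^ 2 * c ^ 2 ≤ 1 * 1 := mul_le_mul hr2 hc2 (sq_nonneg _) zero_le_one
      _ = 1 := one_mul 1
  have h6 : a * (r ^ 2 - (r * c) ^ 2) ≤ a * (2 - 2 * c) := by
    apply mul_le_mul_of_nonneg_left _ ha.le
    calc r ^ 2 - (r * c) ^ 2 = r ^ 2 * (1 - c ^ 2) := by ring
      _ ≤ _ := h4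
  linarith

/-- **the Gaussian integral over the unit sphere**, the lower-integral form -/
theorem lintegral_sphere_gauss (hn : 1 ≤ n) {a : ℝ} (ha : 0 < a)
    (ω : Metric.sphere (0 : E n) 1) :
    ∫⁻ ω' : Metric.sphere (0 : E n) 1, ENNReal.ofReal
        (Real.exp (-(a * ‖(ω : E n) - ω'‖ ^ 2))) ∂(volume : Measure (E n)).toSphere
      ≤ ENNReal.ofReal (n * (Real.exp 1 * (√Real.pi * √(Real.pi / a) ^ (n - 1)))) := by
  have hω : ‖(ω : E n)‖ = 1 := norm_eq_of_mem_sphere ω
  refine (lintegral_toSphere_le (n := n)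
    (G := fun y => ENNReal.ofReal (Real.exp 1 *
      Real.exp (-(a * (‖y‖ ^ 2 - ⟪(ω : E n), y⟫ ^ 2) + ⟪(ω : E n), y⟫ ^ 2)))) ?_ ?_).trans ?_
  · apply Measurable.ennreal_ofReal
    apply Continuous.measurable
    fun_prop
  · intro u r hr0 hr1
    exact ENNReal.ofReal_le_ofReal (gauss_pointwise ha ω u hr0 hr1)
  · rw [← ofReal_integral_eq_lintegral_ofReal
      ((integrable_prod_gauss hn ha (ω : E n) hω).const_mul _)
      (Filter.Eventually.of_forall fun y => by positivity)]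
    rw [integral_const_mul, integral_prod_gauss hn (ω : E n) hω,
      ENNReal.ofReal_mul (Nat.cast_nonneg n), ENNReal.ofReal_natCast]

/-- **the Gaussian integral over the unit sphere**, the Bochner form -/
theorem sphere_gauss (hn : 1 ≤ n) {a : ℝ} (ha : 0 < a) (ω : Metric.sphere (0 : E n) 1) :
    ∫ ω' : Metric.sphere (0 : E n) 1, Real.exp (-(a * ‖(ω : E n) - ω'‖ ^ 2))
        ∂(volume : Measure (E n)).toSphere
      ≤ n * (Real.exp 1 * (√Real.pi * √(Real.pi / a) ^ (n - 1))) := by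
  rw [integral_eq_lintegral_of_nonneg_ae (Filter.Eventually.of_forall fun y => by positivity)
    (by
      apply Continuous.aestronglyMeasurable
      fun_prop)]
  apply ENNReal.toReal_le_of_le_ofReal (by positivity)
  exact lintegral_sphere_gauss hn ha ω

end Vale.Agent.P076.H415
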